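import Vale.Agent.P030.C.Sound

/-! Moebius charts: atoms become quadratics on the real line. -/

namespace Vale.Agent.P030

open Real

/-- position `((x - 2^33) / 2^26, (y - 2^33) / 2^26)`, smoothing `e / 2^52` -/
structure At where
  x : ℕ
  y : ℕ
  e : ℕ

inductive GA : Type
  | den : GA
  | cst (q : ℕ) : GA
  | atm (a : At) : GA

structure Ch where
  ar : ℤ
  ai : ℤ
  br : ℤ
  bi : ℤ
  cr : ℤ
  ci : ℤ
  dr : ℤ
  di : ℤ

noncomputable section

def At.pos (a : At) : ℂ := ⟨((a.x : ℝ) - 8589934592) / 67108864, ((a.y : ℝ) - 8589934592) / 67108864⟩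
def At.sm (a : At) : ℝ := (a.e : ℝ) / 67108864 ^ 2
def At.Q (a : At) (z : ℂ) : ℝ := Complex.normSq (z - a.pos) + a.sm
def Fl (l : List At) (z : ℂ) : ℝ := (l.map fun a => log (a.Q z)).sum
def GA.lg (g : GA) (d : ℝ) (z : ℂ) : ℝ :=
  match g with
  | .den => 0
  | .cst q => log q - log d
  | .atm a => log (a.Q z)
def GA.nz (g : GA) (z : ℂ) : Prop :=
  match g with
  | .den => True
  | .cst _ => True
  | .atm a => a.Q z ≠ 0
def Fm (l : List (GA × ℕ)) (d : ℝ) (z : ℂ) : ℝ := (l.map fun a => (a.2 : ℝ) * a.1.lg d z).sum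
def Ch.num (c : Ch) (s : ℝ) : ℂ := ⟨c.ar * s + c.br, c.ai * s + c.bi⟩
def Ch.den (c : Ch) (s : ℝ) : ℂ := ⟨c.cr * s + c.dr, c.ci * s + c.di⟩
def Ch.dq (c : Ch) (s : ℝ) : ℝ := 67108864 ^ 2 * Complex.normSq (c.den s)

def Ch.mat2 (c : Ch) (ur ui vr vi E : ℤ) (A B C : ℕ) : Bool :=
  decide ((A : ℤ) = ur * ur + ui * ui + E * (c.cr * c.cr + c.ci * c.ci)) &&
  decide ((B : ℤ) = -2 * (ur * vr + ui * vi + E * (c.cr * c.dr + c.ci * c.di))) &&
  decide ((C : ℤ) = vr * vr + vi * vi + E * (c.dr * c.dr + c.di * c.di))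

def Ch.mat3 (c : Ch) (X Y E : ℤ) (A B C : ℕ) : Bool :=
  c.mat2 (67108864 * c.ar - (X * c.cr - Y * c.ci)) (67108864 * c.ai - (X * c.ci + Y * c.cr))
    (67108864 * c.br - (X * c.dr - Y * c.di)) (67108864 * c.bi - (X * c.di + Y * c.dr)) E A B C

def Ch.mat1 (c : Ch) (a : At) (A B C : ℕ) : Bool :=
  c.mat3 ((a.x : ℤ) - 8589934592) ((a.y : ℤ) - 8589934592) a.e A B C

def Ch.matG (c : Ch) (g : GA) (A B C : ℕ) : Bool :=
  match g with
  | .den => c.mat2 0 0 0 0 4503599627370496 A B C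
  | .cst q => Nat.beq A 0 && Nat.beq B 0 && Nat.beq C q
  | .atm a => c.mat1 a A B C

def QL.mat (c : Ch) (q : QL) : List At → Bool :=
  QL.rec (fun l => l.isEmpty) (fun A B C _ _ ih l =>
    match l with
    | [] => false
    | a :: l' => c.mat1 a A B C && Nat.ble 1 a.e && ih l') q

def QM.mat (c : Ch) (q : QM) : List (GA × ℕ) → Bool :=
  QM.rec (fun l => l.isEmpty) (fun A B C _ m _ ih l =>
    match l with
    | [] => false
    | a :: l' => c.matG a.1 A B C && Nat.beq m a.2 && ih l') q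

def msum (l : List (GA × ℕ)) : ℕ := (l.map fun a => a.2).sum

def Dat.mat (D : Dat) (c : Ch) (l1 l2 l3 l4 : List At) (m1 m2 : List (GA × ℕ)) : Bool :=
  D.p1.mat c l1 && D.p2.mat c l2 && D.n1.mat c l3 && D.n2.mat c l4 && D.pm.mat c m1 &&
    D.nm.mat c m2 && Nat.beq (l1.length + l2.length + msum m1) (l3.length + l4.length + msum m2)

end

theorem Ch.mat2_spec {c : Ch} {ur ui vr vi E : ℤ} {A B C : ℕ} (h : c.mat2 ur ui vr vi E A B C = true)
    (s : ℝ) : qv A B C s = (ur * s + vr) ^ 2 + (ui * s + vi) ^ 2 + E * Complex.normSq (c.den s) := by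
  simp only [Ch.mat2, Bool.and_eq_true, decide_eq_true_eq] at h
  obtain ⟨⟨h1, h2⟩, h3⟩ := h
  have e1 := congrArg (Int.cast : ℤ → ℝ) h1
  have e2 := congrArg (Int.cast : ℤ → ℝ) h2
  have e3 := congrArg (Int.cast : ℤ → ℝ) h3
  push_cast at e1 e2 e3
  rw [qv, e1, e2, e3, Complex.normSq_apply]
  simp only [Ch.den]
  ring

theorem Ch.mat1_spec {c : Ch} {a : At} {A B C : ℕ} (h : c.mat1 a A B C = true) (s : ℝ) (z : ℂ)
    (hz : z * c.den s = c.num s) : qv A B C s = c.dq s * a.Q z := by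
  rw [Ch.mat2_spec h s]
  have e : Complex.normSq (c.den s) * Complex.normSq (z - a.pos) =
      Complex.normSq (c.num s - a.pos * c.den s) := by
    rw [← Complex.normSq_mul, ← hz]; congr 1; ring
  rw [Ch.dq, At.Q, mul_add, mul_assoc, e, Complex.normSq_apply (c.num s - a.pos * c.den s)]
  simp only [Ch.num, Ch.den, At.pos, At.sm, Complex.sub_re, Complex.sub_im, Complex.mul_re,
    Complex.mul_im]
  push_cast
  field_simp
  ring

theorem Ch.matG_spec {c : Ch} {g : GA} {A B C : ℕ} (h : c.matG g A B C = true) (s : ℝ) (z : ℂ)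
    (hd : c.dq s ≠ 0) (hz : z * c.den s = c.num s) (hg : g.nz z) :
    log (qv A B C s) = log (c.dq s) + g.lg (c.dq s) z := by
  cases g with
  | den =>
    have := Ch.mat2_spec h s
    rw [this, Ch.dq]; simp [GA.lg]; norm_num
  | cst q =>
    simp only [Ch.matG, Bool.and_eq_true, Nat.beq_eq] at h
    obtain ⟨⟨rfl, rfl⟩, rfl⟩ := h
    simp [qv, GA.lg]
  | atm a =>
    rw [Ch.mat1_spec h s z hz, log_mul hd hg]; rfl

theorem At.Q_pos (a : At) (h : 1 ≤ a.e) (z : ℂ) : 0 < a.Q z := by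
  have h1 : (1 : ℝ) ≤ a.e := by exact_mod_cast h
  have := Complex.normSq_nonneg (z - a.pos)
  have : 0 < a.sm := by unfold At.sm; positivity
  unfold At.Q; linarith

theorem QL.mat_spec {c : Ch} (q : QL) (l : List At) (h : q.mat c l = true) (s : ℝ) (z : ℂ)
    (hd : c.dq s ≠ 0) (hz : z * c.den s = c.num s) :
    q.F s = l.length * log (c.dq s) + Fl l z := by
  induction q generalizing l with
  | nil =>
    have : l = [] := List.isEmpty_iff.1 h
    subst this; simp [QL.F, Fl]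
  | cons A B C S t ih =>
    cases l with
    | nil => exact absurd h (by simp [QL.mat])
    | cons a l =>
      have h' : (c.mat1 a A B C && Nat.ble 1 a.e && t.mat c l) = true := h
      simp only [Bool.and_eq_true, Nat.ble_eq] at h'
      show log (qv A B C s) + t.F s = _
      rw [ih l h'.2, Ch.mat1_spec h'.1.1 s z hz, log_mul hd (a.Q_pos h'.1.2 z).ne']
      simp only [Fl, List.map_cons, List.sum_cons, List.length_cons]
      push_cast; ring

theorem QM.mat_spec {c : Ch} (q : QM) (l : List (GA × ℕ)) (h : q.mat c l = true) (s : ℝ) (z : ℂ)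
    (hd : c.dq s ≠ 0) (hz : z * c.den s = c.num s) (hn : ∀ a ∈ l, a.1.nz z) :
    q.F s = msum l * log (c.dq s) + Fm l (c.dq s) z := by
  induction q generalizing l with
  | nil =>
    have : l = [] := List.isEmpty_iff.1 h
    subst this; simp [QM.F, Fm, msum]
  | cons A B C S m t ih =>
    cases l with
    | nil => exact absurd h (by simp [QM.mat])
    | cons a l =>
      have h' : (c.matG a.1 A B C && Nat.beq m a.2 && t.mat c l) = true := h
      simp only [Bool.and_eq_true, Nat.beq_eq] at h'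
      show m * log (qv A B C s) + t.F s = _
      rw [ih l h'.2 (fun b hb => hn b (List.mem_cons_of_mem _ hb)),
        Ch.matG_spec h'.1.1 s z hd hz (hn a List.mem_cons_self), h'.1.2]
      simp only [Fm, msum, List.map_cons, List.sum_cons]
      push_cast; ring

theorem Dat.mat_spec {D : Dat} {c : Ch} {l1 l2 l3 l4 : List At} {m1 m2 : List (GA × ℕ)}
    (h : D.mat c l1 l2 l3 l4 m1 m2 = true) (s : ℝ) (z : ℂ) (hd : c.den s ≠ 0)
    (hz : z * c.den s = c.num s) (h1 : ∀ a ∈ m1, a.1.nz z) (h2 : ∀ a ∈ m2, a.1.nz z) :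
    D.F s = Fl l1 z + Fl l2 z + Fm m1 (c.dq s) z - (Fl l3 z + Fl l4 z + Fm m2 (c.dq s) z) := by
  simp only [Dat.mat, Bool.and_eq_true, Nat.beq_eq] at h
  obtain ⟨⟨⟨⟨⟨⟨a1, a2⟩, a3⟩, a4⟩, a5⟩, a6⟩, a7⟩ := h
  have hd' : c.dq s ≠ 0 := by
    unfold Ch.dq
    exact mul_ne_zero (by norm_num) (by simpa using hd)
  have a7' : (l1.length : ℝ) + l2.length + msum m1 = l3.length + l4.length + msum m2 := by
    exact_mod_cast a7
  rw [Dat.F, QL.mat_spec _ _ a1 s z hd' hz, QL.mat_spec _ _ a2 s z hd' hz,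
    QL.mat_spec _ _ a3 s z hd' hz, QL.mat_spec _ _ a4 s z hd' hz,
    QM.mat_spec _ _ a5 s z hd' hz h1, QM.mat_spec _ _ a6 s z hd' hz h2]
  linear_combination log (c.dq s) * a7'

end Vale.Agent.P030
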