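import Mathlib

/-! A checker for upper bounds of `∑ ± log (quadratic)` on real intervals. -/

namespace Vale.Agent.P030

open Real

/-- list of quadratics `A s^2 - B s + C`, with `S = A * 2^sh` -/
inductive QL : Type
  | nil : QL
  | cons (A B C S : ℕ) (t : QL) : QL

/-- list of quadratics with multiplicity `m` -/
inductive QM : Type
  | nil : QM
  | cons (A B C S m : ℕ) (t : QM) : QM

noncomputable section

def qv (A B C : ℕ) (s : ℝ) : ℝ := A * s ^ 2 - B * s + C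

def QL.F (l : QL) (s : ℝ) : ℝ := QL.rec 0 (fun A B C _ _ ih => log (qv A B C s) + ih) l
def QM.F (l : QM) (s : ℝ) : ℝ := QM.rec 0 (fun A B C _ m _ ih => m * log (qv A B C s) + ih) l
def QL.ok (H : ℕ) (l : QL) : Bool :=
  QL.rec true (fun A B C S _ ih => Nat.ble (B * B) (4 * A * C) && Nat.beq S (A * H) && ih) l
def QM.ok (H : ℕ) (l : QM) : Bool :=
  QM.rec true (fun A B C S m _ ih =>
    Nat.ble (B * B) (4 * A * C) && Nat.beq S (A * H) && Nat.ble 1 m && ih) l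
def QL.len (l : QL) : ℕ := QL.rec 0 (fun _ _ _ _ _ ih => Nat.succ ih) l

def ev (n m : ℕ) (l : QL) (k : ℕ → ℕ → Bool) : ℕ → ℕ → Bool :=
  QL.rec k (fun A B C S _ ih P T =>
    let q := Nat.sub (Nat.add (Nat.mul A m) C) (Nat.mul B n)
    ih (Nat.mul P q) (Nat.add T (Nat.div S q))) l

def evm (n m : ℕ) (l : QM) (k : ℕ → ℕ → Bool) : ℕ → ℕ → Bool :=
  QM.rec k (fun A B C S c _ ih P T =>
    let q := Nat.sub (Nat.add (Nat.mul A m) C) (Nat.mul B n)
    ih (Nat.mul P (Nat.pow q c)) (Nat.add T (Nat.mul c (Nat.succ (Nat.div S q))))) l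

structure Dat where
  p1 : QL
  p2 : QL
  n1 : QL
  n2 : QL
  pm : QM
  nm : QM
  Rn : ℕ
  Rd : ℕ
  H : ℕ
  c : ℕ

def Dat.ok (D : Dat) : Bool :=
  D.p1.ok D.H && D.p2.ok D.H && D.n1.ok D.H && D.n2.ok D.H && D.pm.ok D.H && D.nm.ok D.H &&
    Nat.ble (D.p1.len + D.p2.len + D.n1.len + D.n2.len) D.c && Nat.ble 1 D.Rd && Nat.ble 1 D.H

def Dat.F (D : Dat) (s : ℝ) : ℝ :=
  D.p1.F s + D.p2.F s + D.pm.F s - (D.n1.F s + D.n2.F s + D.nm.F s)

def vtx (D : Dat) (n m l : ℕ) : Bool :=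
  ev n m D.p1 (ev n m D.p2 (evm n m D.pm fun P T =>
    ev n m D.n1 (ev n m D.n2 (evm n m D.nm fun P' T' =>
      Nat.ble 1 P && Nat.ble (Nat.mul P D.Rd) (Nat.mul P' D.Rn) &&
        Nat.ble (Nat.mul (Nat.mul 4 (Nat.mul l l)) T') D.H)) 1 T)) 1 D.c

def run (D : Dat) (hi : ℕ) (vs : List ℕ) : ℕ → Bool :=
  List.rec (fun n => Nat.beq n hi && vtx D n (Nat.mul n n) 0)
    (fun v _ ih n => Nat.ble n v && vtx D n (Nat.mul n n) (Nat.sub v n) && ih v) vs

end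

end Vale.Agent.P030
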