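import Vale.Agent.P030.C.QR

namespace Vale.Agent.P030

set_option maxRecDepth 100000

noncomputable section

theorem r_nuA_19 : Cov DnuR 1206516465 1207511041 := run_sound DnuR_ok (vs := [nat_lit 1206537422, nat_lit 1206559353, nat_lit 1206581252, nat_lit 1206601846, nat_lit 1206621370, nat_lit 1206641140, nat_lit 1206661855, nat_lit 1206682790, nat_lit 1206702632, nat_lit 1206721286, nat_lit 1206739935, nat_lit 1206759449, nat_lit 1206779385, nat_lit 1206798467, nat_lit 1206816306, nat_lit 1206833899, nat_lit 1206852234, nat_lit 1206871142, nat_lit 1206889451, nat_lit 1206906526, nat_lit 1206923137, nat_lit 1206940333, nat_lit 1206958195, nat_lit 1206975711, nat_lit 1206992063, nat_lit 1207007766, nat_lit 1207023873, nat_lit 1207040683, nat_lit 1207057380, nat_lit 1207073034, nat_lit 1207087896, nat_lit 1207102971, nat_lit 1207118737, nat_lit 1207134589, nat_lit 1207149554, nat_lit 1207163631, nat_lit 1207177730, nat_lit 1207192465, nat_lit 1207207449, nat_lit 1207221726, nat_lit 1207235069, nat_lit 1207248251, nat_lit 1207261981, nat_lit 1207276081, nat_lit 1207289669, nat_lit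 1207302325, nat_lit 1207314655, nat_lit 1207327417, nat_lit 1207340625, nat_lit 1207353513, nat_lit 1207365519, nat_lit 1207377061, nat_lit 1207388902, nat_lit 1207401221, nat_lit 1207413395, nat_lit 1207424773, nat_lit 1207435581, nat_lit 1207446549, nat_lit 1207457989, nat_lit 1207469434, nat_lit 1207480198, nat_lit 1207490320, nat_lit 1207500463, nat_lit 1207511041])
  (by decide +kernel)

theorem r_nuA_20 : Cov DnuR 1207511041 1207918814 := run_sound DnuR_ok (vs := [nat_lit 1207521748, nat_lit 1207531908, nat_lit 1207541393, nat_lit 1207550767, nat_lit 1207560513, nat_lit 1207570478, nat_lit 1207580038, nat_lit 1207588927, nat_lit 1207597587, nat_lit 1207606537, nat_lit 1207615761, nat_lit 1207624718, nat_lit 1207633041, nat_lit 1207641039, nat_lit 1207649233, nat_lit 1207657725, nat_lit 1207666077, nat_lit 1207673858, nat_lit 1207681241, nat_lit 1207688721, nat_lit 1207696496, nat_lit 1207704240, nat_lit 1207711497, nat_lit 1207718310, nat_lit 1207725124, nat_lit 1207732206, nat_lit 1207739344, nat_lit 1207746093, nat_lit 1207752380, nat_lit 1207758577, nat_lit 1207764997,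 nat_lit 1207771533, nat_lit 1207777782, nat_lit 1207783577, nat_lit 1207789205, nat_lit 1207794998, nat_lit 1207800944, nat_lit 1207806701, nat_lit 1207812036, nat_lit 1207817141, nat_lit 1207822345, nat_lit 1207827717, nat_lit 1207832989, nat_lit 1207837892, nat_lit 1207842522, nat_lit 1207847182, nat_lit 1207852005, nat_lit 1207856805, nat_lit 1207861306, nat_lit 1207865511, nat_lit 1207869679, nat_lit 1207873985, nat_lit 1207878327, nat_lit 1207882450, nat_lit 1207886279, nat_lit 1207890009, nat_lit 1207893839, nat_lit 1207897749, nat_lit 1207901533, nat_lit 1207905055, nat_lit 1207908424, nat_lit 1207911833, nat_lit 1207915339, nat_lit 1207918814])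
  (by decide +kernel)

theorem r_nuA_21 : Cov DnuR 1207918814 1207959552 := run_sound DnuR_ok (vs := [nat_lit 1207922106, nat_lit 1207925222, nat_lit 1207928308, nat_lit 1207931474, nat_lit 1207934701, nat_lit 1207937880, nat_lit 1207940904, nat_lit 1207943714, nat_lit 1207946294, nat_lit 1207948649, nat_lit 1207950787, nat_lit 1207952708, nat_lit 1207954403, nat_lit 1207955865, nat_lit 1207957096, nat_lit 1207958117, nat_lit 1207958971, nat_lit 1207959552])
  (by decide +kernel)


end

end Vale.Agent.P030
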