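import Vale.Agent.P030.C.QI

namespace Vale.Agent.P030

set_option maxRecDepth 100000

noncomputable section

theorem r_prB_5 : Cov DprI 1066456834 1072693248 := run_sound DprI_ok (vs := [nat_lit 1066749927, nat_lit 1067061843, nat_lit 1067385288, nat_lit 1067713861, nat_lit 1068042316, nat_lit 1068366531, nat_lit 1068683357, nat_lit 1068990466, nat_lit 1069286189, nat_lit 1069569392, nat_lit 1069839368, nat_lit 1070095747, nat_lit 1070338422, nat_lit 1070567489, nat_lit 1070783200, nat_lit 1070985919, nat_lit 1071176097, nat_lit 1071354241, nat_lit 1071520896, nat_lit 1071676629, nat_lit 1071822014, nat_lit 1071957625, nat_lit 1072084028, nat_lit 1072201774, nat_lit 1072311397, nat_lit 1072413410, nat_lit 1072508302, nat_lit 1072596540, nat_lit 1072678566, nat_lit 1072693248])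
  (by decide +kernel)

theorem r_prC_0 : Cov DprT 1072693248 1074790400 := run_sound DprT_ok (vs := [nat_lit 1073360575, nat_lit 1074027419, nat_lit 1074690012, nat_lit 1074790400])
  (by decide +kernel)


end

end Vale.Agent.P030
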