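import Vale.Agent.P030.C.R0
import Vale.Agent.P030.C.R1
import Vale.Agent.P030.C.R2
import Vale.Agent.P030.C.R3
import Vale.Agent.P030.C.R4
import Vale.Agent.P030.C.R5
import Vale.Agent.P030.C.R6
import Vale.Agent.P030.C.R7
import Vale.Agent.P030.C.R8
import Vale.Agent.P030.C.R9
import Vale.Agent.P030.C.R10

namespace Vale.Agent.P030

set_option maxRecDepth 100000

noncomputable section

theorem cov_muA : Cov DmuI 1074790400 1107296256 :=
  r_muA_0.trans (r_muA_1.trans (r_muA_2.trans (r_muA_3.trans (r_muA_4.trans (r_muA_5.trans (r_muA_6.trans (r_muA_7.trans (r_muA_8.trans (r_muA_9.trans (r_muA_10.trans r_muA_11))))))))))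

theorem cov_muB : Cov DmuI 1040650211 1072693248 :=
  r_muB_0.trans (r_muB_1.trans (r_muB_2.trans (r_muB_3.trans r_muB_4)))

theorem cov_muC : Cov DmuT 1072693248 1074790400 :=
  r_muC_0

theorem cov_muD : Cov DmuA 2080374784 2214592512 :=
  r_muD_0.trans (r_muD_1.trans r_muD_2)

theorem cov_muE : Cov DmuB 2080374784 2214592512 :=
  r_muE_0.trans r_muE_1

theorem cov_prA : Cov DprI 1074790400 1096882812 :=
  r_prA_0.trans (r_prA_1.trans (r_prA_2.trans r_prA_3))

theorem cov_prF : Cov DprI 1107296255 1107296256 :=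
  r_prF_0

theorem cov_prB : Cov DprI 1040650211 1072693248 :=
  r_prB_0.trans (r_prB_1.trans (r_prB_2.trans (r_prB_3.trans (r_prB_4.trans r_prB_5))))

theorem cov_prC : Cov DprT 1072693248 1074790400 :=
  r_prC_0

theorem cov_prD : Cov DprA 2080374784 2214592512 :=
  r_prD_0.trans r_prD_1

theorem cov_prE : Cov DprB 2080374784 2214592512 :=
  r_prE_0.trans r_prE_1

theorem cov_etA : Cov DetR 939524096 1207959552 :=
  r_etA_0.trans (r_etA_1.trans (r_etA_2.trans (r_etA_3.trans (r_etA_4.trans r_etA_5))))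

theorem cov_etD : Cov DetA 137371844608 137506062336 :=
  r_etD_0.trans (r_etD_1.trans r_etD_2)

theorem cov_etE : Cov DetB 137371844608 137506062336 :=
  r_etE_0.trans (r_etE_1.trans (r_etE_2.trans (r_etE_3.trans (r_etE_4.trans r_etE_5))))

theorem cov_nuA : Cov DnuR 1073741824 1207959552 :=
  r_nuA_0.trans (r_nuA_1.trans (r_nuA_2.trans (r_nuA_3.trans (r_nuA_4.trans (r_nuA_5.trans (r_nuA_6.trans (r_nuA_7.trans (r_nuA_8.trans (r_nuA_9.trans (r_nuA_10.trans (r_nuA_11.trans (r_nuA_12.trans (r_nuA_13.trans (r_nuA_14.trans (r_nuA_15.trans (r_nuA_16.trans (r_nuA_17.trans (r_nuA_18.trans (r_nuA_19.trans (r_nuA_20.trans r_nuA_21))))))))))))))))))))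


end

end Vale.Agent.P030
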