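import Vale.Agent.P030.C.En
import Vale.Agent.P030.C.Runs

/-! The charts cover the regions. -/

namespace Vale.Agent.P030

open Real

theorem b0_Q (z : ℂ) : b0.Q z = Complex.normSq z := by
  have : b0.pos = 0 := by apply Complex.ext <;> simp [At.pos, b0]
  rw [At.Q, this]; simp [At.sm, b0]

theorem bm2_Q (z : ℂ) : bm2.Q z = Complex.normSq (z + 2) := by
  have : bm2.pos = -2 := by apply Complex.ext <;> simp [At.pos, bm2]; norm_num
  rw [At.Q, this]; simp [At.sm, bm2]

theorem b0e_Q (z : ℂ) : b0e.Q z = Complex.normSq z + e0 := by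
  have : b0e.pos = 0 := by apply Complex.ext <;> simp [At.pos, b0e]
  rw [At.Q, this]; simp [At.sm, b0e, e0]; norm_num

theorem b2e_Q (z : ℂ) : b2e.Q z = Complex.normSq (z - 2) + e0 := by
  have : b2e.pos = 2 := by apply Complex.ext <;> simp [At.pos, b2e]; norm_num
  rw [At.Q, this]; simp [At.sm, b2e, e0]; norm_num

theorem bm2e_Q (z : ℂ) : bm2e.Q z = Complex.normSq (z + 2) + e0 := by
  have : bm2e.pos = -2 := by apply Complex.ext <;> simp [At.pos, bm2e]; norm_num
  rw [At.Q, this]; simp [At.sm, bm2e, e0]; norm_num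

theorem circle_param (u : ℂ) (hu : ‖u‖ = 1) (h0 : 0 ≤ u.re) :
    ∃ t : ℝ, -1 ≤ t ∧ t ≤ 1 ∧ u * (1 - Complex.I * t) = 1 + Complex.I * t := by
  have h1 : u.re * u.re + u.im * u.im = 1 := by
    rw [← Complex.normSq_apply, Complex.normSq_eq_norm_sq, hu]; norm_num
  have p : 0 < 1 + u.re := by linarith
  refine ⟨u.im / (1 + u.re), ?_, ?_, ?_⟩
  · rw [le_div_iff₀ p]; nlinarith
  · rw [div_le_one p]; nlinarith
  · apply Complex.ext
    · simp only [Complex.mul_re, Complex.sub_re, Complex.one_re, Complex.I_re, Complex.ofReal_re,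
        Complex.I_im, Complex.ofReal_im, Complex.sub_im, Complex.one_im, Complex.mul_im,
        Complex.add_re]
      field_simp
      nlinarith
    · simp only [Complex.mul_re, Complex.sub_re, Complex.one_re, Complex.I_re, Complex.ofReal_re,
        Complex.I_im, Complex.ofReal_im, Complex.sub_im, Complex.one_im, Complex.mul_im,
        Complex.add_im]
      field_simp
      ring

theorem circle_two (z : ℂ) (c ρ : ℝ) (hρ : 0 < ρ) (h : ‖z - c‖ = ρ) :
    ∃ t : ℝ, -1 ≤ t ∧ t ≤ 1 ∧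
      (z * (1 - Complex.I * t) = c * (1 - Complex.I * t) + ρ * (1 + Complex.I * t) ∨
        z * (1 - Complex.I * t) = c * (1 - Complex.I * t) - ρ * (1 + Complex.I * t)) := by
  have hρ' : (ρ : ℂ) ≠ 0 := by exact_mod_cast hρ.ne'
  have hu : ‖(z - c) / ρ‖ = 1 := by
    rw [norm_div, h, Complex.norm_real, Real.norm_of_nonneg hρ.le, div_self hρ.ne']
  rcases le_total 0 ((z - c) / ρ).re with h0 | h0
  · obtain ⟨t, a, b, e⟩ := circle_param _ hu h0
    refine ⟨t, a, b, Or.inl ?_⟩
    rw [← e]; field_simp; ring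
  · obtain ⟨t, a, b, e⟩ := circle_param (-((z - c) / ρ)) (by rw [norm_neg, hu])
      (by rw [Complex.neg_re]; linarith)
    refine ⟨t, a, b, Or.inr ?_⟩
    rw [← e]; field_simp; ring

theorem cv_one_sub_ne (t : ℝ) : (1 - Complex.I * t : ℂ) ≠ 0 := by
  intro h
  have := congrArg Complex.re h
  simp at this

theorem chart_L (z : ℂ) (h : ‖z + 41474 / 20735‖ = 576 / 20735) : ∃ s : ℝ,
    ((2080374784 : ℕ) : ℝ) ≤ s ∧ s ≤ ((2214592512 : ℕ) : ℝ) ∧
      ((cLa.den s ≠ 0 ∧ z * cLa.den s = cLa.num s) ∨ (cLb.den s ≠ 0 ∧ z * cLb.den s = cLb.num s)) := by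
  obtain ⟨t, a, b, e⟩ := circle_two z (-(41474 / 20735)) (576 / 20735) (by norm_num)
    (by rw [← h]; congr 1; push_cast; ring)
  have d1 : cLa.den (67108864 * t + 2147483648) = 1391502295040 * (1 - Complex.I * t) := by
    apply Complex.ext <;> simp [Ch.den, cLa]; ring
  have d2 : cLb.den (67108864 * t + 2147483648) = 1391502295040 * (1 - Complex.I * t) := by
    apply Complex.ext <;> simp [Ch.den, cLb]; ring
  have n1 : cLa.num (67108864 * t + 2147483648) =
      67108864 * (-41474 * (1 - Complex.I * t) + 576 * (1 + Complex.I * t)) := by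
    apply Complex.ext <;> simp [Ch.num, cLa] <;> ring
  have n2 : cLb.num (67108864 * t + 2147483648) =
      67108864 * (-41474 * (1 - Complex.I * t) - 576 * (1 + Complex.I * t)) := by
    apply Complex.ext <;> simp [Ch.num, cLb] <;> ring
  refine ⟨67108864 * t + 2147483648, by push_cast; linarith, by push_cast; linarith, ?_⟩
  push_cast at e
  rcases e with e | e
  · refine Or.inl ⟨d1 ▸ mul_ne_zero (by norm_num) (cv_one_sub_ne t), ?_⟩
    rw [d1, n1]; linear_combination 1391502295040 * e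
  · refine Or.inr ⟨d2 ▸ mul_ne_zero (by norm_num) (cv_one_sub_ne t), ?_⟩
    rw [d2, n2]; linear_combination 1391502295040 * e

theorem chart_C (z : ℂ) (h : ‖z - 49 / 20‖ = 9 / 20) : ∃ s : ℝ,
    ((137371844608 : ℕ) : ℝ) ≤ s ∧ s ≤ ((137506062336 : ℕ) : ℝ) ∧
      ((cCa.den s ≠ 0 ∧ z * cCa.den s = cCa.num s) ∨ (cCb.den s ≠ 0 ∧ z * cCb.den s = cCb.num s)) := by
  obtain ⟨t, a, b, e⟩ := circle_two z (49 / 20) (9 / 20) (by norm_num)
    (by rw [← h]; congr 1; push_cast; ring)
  have d1 : cCa.den (67108864 * t + 137438953472) = 1342177280 * (1 - Complex.I * t) := by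
    apply Complex.ext <;> simp [Ch.den, cCa]; ring
  have d2 : cCb.den (67108864 * t + 137438953472) = 1342177280 * (1 - Complex.I * t) := by
    apply Complex.ext <;> simp [Ch.den, cCb]; ring
  have n1 : cCa.num (67108864 * t + 137438953472) =
      67108864 * (49 * (1 - Complex.I * t) + 9 * (1 + Complex.I * t)) := by
    apply Complex.ext <;> simp [Ch.num, cCa] <;> ring
  have n2 : cCb.num (67108864 * t + 137438953472) =
      67108864 * (49 * (1 - Complex.I * t) - 9 * (1 + Complex.I * t)) := by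
    apply Complex.ext <;> simp [Ch.num, cCb] <;> ring
  refine ⟨67108864 * t + 137438953472, by push_cast; linarith, by push_cast; linarith, ?_⟩
  push_cast at e
  rcases e with e | e
  · refine Or.inl ⟨d1 ▸ mul_ne_zero (by norm_num) (cv_one_sub_ne t), ?_⟩
    rw [d1, n1]; linear_combination 1342177280 * e
  · refine Or.inr ⟨d2 ▸ mul_ne_zero (by norm_num) (cv_one_sub_ne t), ?_⟩
    rw [d2, n2]; linear_combination 1342177280 * e

theorem chart_R (u : ℝ) : cR.den (67108864 * u + 1073741824) ≠ 0 ∧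
    (u : ℂ) * cR.den (67108864 * u + 1073741824) = cR.num (67108864 * u + 1073741824) := by
  constructor
  · intro h
    have := congrArg Complex.re h
    simp [Ch.den, cR] at this
  · apply Complex.ext <;> simp [Ch.den, Ch.num, cR]; ring

theorem chart_I (x : ℝ) (hx : x ≠ 0) : cI.den (67108864 / x + 1073741824) ≠ 0 ∧
    (x : ℂ) * cI.den (67108864 / x + 1073741824) = cI.num (67108864 / x + 1073741824) ∧
    cI.dq (67108864 / x + 1073741824) = 2 ^ 104 / x ^ 2 := by
  have d : cI.den (67108864 / x + 1073741824) = ((67108864 / x : ℝ) : ℂ) := by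
    apply Complex.ext <;> simp only [Ch.den, cI, Complex.ofReal_re, Complex.ofReal_im] <;>
      push_cast <;> ring
  refine ⟨?_, ?_, ?_⟩
  · rw [d]; exact_mod_cast (div_ne_zero (by norm_num) hx)
  · rw [d, ← Complex.ofReal_mul, mul_div_cancel₀ _ hx]
    apply Complex.ext <;> simp [Ch.num, cI]
  · rw [Ch.dq, d, Complex.normSq_ofReal]; field_simp; norm_num

noncomputable section

def bMu : ℝ := log (((79920 : ℕ) : ℝ) / 2 ^ 575)
def bPr : ℝ := log (((96738 : ℕ) : ℝ) / 2 ^ 364)
def bEt : ℝ := log (((117121 : ℕ) : ℝ) * 2 ^ 194)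
def bNu : ℝ := log (((80752 : ℕ) : ℝ) / 2 ^ 795)

def fMu (w : ℂ) : ℝ := Fl aP1 w + Fl aP4 w + 8 * log (Complex.normSq (w - 2) + e0) -
  (Fl aN1 w + Fl aN4 w + (160 * log (Complex.normSq w) + 24 * log (Complex.normSq (w + 2))))
def fPr (w : ℂ) : ℝ := Fl aP1 w + Fl aP3 w + 8 * log (Complex.normSq (w - 2) + e0) -
  (Fl aN1 w + 160 * log (Complex.normSq w))
def fEt (w : ℂ) : ℝ := Fl aP3 w + Fl aN4 w + 24 * log (Complex.normSq (w + 2) + e0) - Fl aP4 w
def fNu (w : ℂ) : ℝ := Fl aN1 w + Fl aP2 w + (16 * log (Complex.normSq w + e0) +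
  8 * log (Complex.normSq (w - 2) + e0)) - Fl aP1 w

end

theorem cv_e0_pos : 0 < e0 := by unfold e0; positivity

theorem nz_e (z : ℂ) : Complex.normSq z + e0 ≠ 0 :=
  (add_pos_of_nonneg_of_pos (Complex.normSq_nonneg z) cv_e0_pos).ne'

theorem mu_F {D : Dat} {c : Ch} {g : GA}
    (h : D.mat c aP1 aP4 aN1 aN4 [(g, 152), (.atm b2e, 8)] [(.atm b0, 160), (.atm bm2, 24)] = true)
    (hg : ∀ z, g.nz z)
    (s : ℝ) (w : ℂ) (hd : c.den s ≠ 0) (hz : w * c.den s = c.num s) (h0 : w ≠ 0)
    (h2 : w + 2 ≠ 0) : D.F s = fMu w + 152 * g.lg (c.dq s) w := by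
  rw [Dat.mat_spec h s w hd hz]
  · simp only [Fm, fMu, List.map_cons, List.map_nil, List.sum_cons, List.sum_nil]
    simp only [GA.lg, b0_Q, bm2_Q, b2e_Q]
    push_cast; ring
  · simp only [List.mem_cons, List.not_mem_nil, or_false]
    rintro a (rfl | rfl)
    · exact hg w
    · show b2e.Q w ≠ 0
      rw [b2e_Q]; exact nz_e _
  · simp only [List.mem_cons, List.not_mem_nil, or_false]
    rintro a (rfl | rfl)
    · show b0.Q w ≠ 0
      rw [b0_Q]; simpa using h0
    · show bm2.Q w ≠ 0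
      rw [bm2_Q]; simpa using h2

theorem pr_F {D : Dat} {c : Ch} {g : GA}
    (h : D.mat c aP1 aP3 aN1 [] [(g, 48), (.atm b2e, 8)] [(.atm b0, 160)] = true)
    (hg : ∀ z, g.nz z)
    (s : ℝ) (w : ℂ) (hd : c.den s ≠ 0) (hz : w * c.den s = c.num s) (h0 : w ≠ 0) :
    D.F s = fPr w + 48 * g.lg (c.dq s) w := by
  rw [Dat.mat_spec h s w hd hz]
  · simp only [Fm, fPr, List.map_cons, List.map_nil, List.sum_cons, List.sum_nil]
    simp only [GA.lg, b0_Q, b2e_Q, Fl, List.map_nil, List.sum_nil]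
    push_cast; ring
  · simp only [List.mem_cons, List.not_mem_nil, or_false]
    rintro a (rfl | rfl)
    · exact hg w
    · show b2e.Q w ≠ 0
      rw [b2e_Q]; exact nz_e _
  · simp only [List.mem_cons, List.not_mem_nil, or_false]
    rintro a rfl
    show b0.Q w ≠ 0
    rw [b0_Q]; simpa using h0

theorem et_F {D : Dat} {c : Ch}
    (h : D.mat c aP3 aN4 aP4 [] [(.atm bm2e, 24)] [(.den, 104)] = true)
    (s : ℝ) (w : ℂ) (hd : c.den s ≠ 0) (hz : w * c.den s = c.num s) : D.F s = fEt w := by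
  rw [Dat.mat_spec h s w hd hz]
  · simp only [Fm, fEt, List.map_cons, List.map_nil, List.sum_cons, List.sum_nil]
    simp only [GA.lg, bm2e_Q, Fl, List.map_nil, List.sum_nil]
    push_cast; ring
  · simp only [List.mem_cons, List.not_mem_nil, or_false]
    rintro a rfl
    show bm2e.Q w ≠ 0
    rw [bm2e_Q]; exact nz_e _
  · simp only [List.mem_cons, List.not_mem_nil, or_false]
    rintro a rfl
    trivial

theorem nu_F (u : ℝ) : DnuR.F (67108864 * u + 1073741824) = fNu u := by
  rw [Dat.mat_spec DnuR_mat _ u (chart_R u).1 (chart_R u).2]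
  · simp only [Fm, fNu, List.map_cons, List.map_nil, List.sum_cons, List.sum_nil]
    simp only [GA.lg, b0e_Q, b2e_Q, Fl, List.map_nil, List.sum_nil]
    push_cast; ring
  · simp only [List.mem_cons, List.not_mem_nil, or_false]
    rintro a (rfl | rfl)
    · show b0e.Q u ≠ 0
      rw [b0e_Q]; exact nz_e _
    · show b2e.Q u ≠ 0
      rw [b2e_Q]; exact nz_e _
  · simp only [List.mem_cons, List.not_mem_nil, or_false]
    rintro a rfl
    trivial

theorem bd_of (D : Dat) (M j : ℕ) (h1 : D.Rn = M) (h2 : D.Rd = 2 ^ j) :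
    D.bd = log ((M : ℝ) / 2 ^ j) := by
  rw [Dat.bd, h1, h2]; push_cast; rfl

theorem bd_of' (D : Dat) (M j : ℕ) (h1 : D.Rn = M * 2 ^ j) (h2 : D.Rd = 1) :
    D.bd = log ((M : ℝ) * 2 ^ j) := by
  rw [Dat.bd, h1, h2]; push_cast; rw [div_one]

theorem bd_mu : DmuI.bd = bMu ∧ DmuT.bd = bMu ∧ DmuA.bd = bMu ∧ DmuB.bd = bMu := by
  refine ⟨?_, ?_, ?_, ?_⟩ <;> exact bd_of _ 79920 575 (by decide +kernel) (by decide +kernel)

theorem bd_pr : DprI.bd = bPr ∧ DprT.bd = bPr ∧ DprA.bd = bPr ∧ DprB.bd = bPr := by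
  refine ⟨?_, ?_, ?_, ?_⟩ <;> exact bd_of _ 96738 364 (by decide +kernel) (by decide +kernel)

theorem bd_et : DetR.bd = bEt ∧ DetA.bd = bEt ∧ DetB.bd = bEt := by
  refine ⟨?_, ?_, ?_⟩ <;> exact bd_of' _ 117121 194 (by decide +kernel) (by decide +kernel)

theorem bd_nu : DnuR.bd = bNu := bd_of _ 80752 795 (by decide +kernel) (by decide +kernel)

theorem fNu_le (u : ℝ) (h0 : 0 ≤ u) (h2 : u ≤ 2) : fNu u ≤ bNu + 1 / 4 := by
  rw [← nu_F, ← bd_nu]
  exact cov_nuA _ (by push_cast; linarith) (by push_cast; linarith)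

theorem fEt_real (u : ℝ) (h0 : -2 ≤ u) (h2 : u ≤ 2) : fEt u ≤ bEt + 1 / 4 := by
  rw [← et_F DetR_mat _ u (chart_R u).1 (chart_R u).2, ← bd_et.1]
  exact cov_etA _ (by push_cast; linarith) (by push_cast; linarith)

theorem fEt_circ (z : ℂ) (h : ‖z - 49 / 20‖ = 9 / 20) : fEt z ≤ bEt + 1 / 4 := by
  obtain ⟨s, a, b, ⟨c, d⟩ | ⟨c, d⟩⟩ := chart_C z h
  · rw [← et_F DetA_mat s z c d, ← bd_et.2.1]; exact cov_etD s a b
  · rw [← et_F DetB_mat s z c d, ← bd_et.2.2]; exact cov_etE s a b

theorem fEt_lip (z z' : ℂ) (h : ‖z - z'‖ ≤ 3 * dl) : fEt z ≤ fEt z' + 1 / 1000 := by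
  have a := Fl_lip _ allE_P3 z z' h
  have b := Fl_lip _ allE_N4 z z' h
  have c := Fl_lip _ allE_P4 z' z (by rwa [norm_sub_rev])
  have d := logQ_lip bm2e (by decide) z z' h
  rw [len_P3] at a
  rw [len_N4] at b
  rw [len_P4] at c
  rw [bm2e_Q, bm2e_Q] at d
  unfold fEt
  push_cast at a b c
  linarith

theorem fEt_le (z : ℂ) (h : Eta z) : fEt z ≤ bEt + 251 / 1000 := by
  rcases h with ⟨u, a, b, c⟩ | ⟨z', a, b⟩
  · linarith [fEt_lip z u c, fEt_real u a b]
  · linarith [fEt_lip z z' b, fEt_circ z' a]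

theorem circ_facts {w : ℂ} (h : ‖w + 41474 / 20735‖ = 576 / 20735) :
    w ≠ 0 ∧ w + 2 ≠ 0 ∧ max 0 (log (‖w‖ / 64)) = 0 := by
  refine ⟨?_, ?_, ?_⟩
  · rintro rfl
    rw [zero_add, norm_div] at h
    norm_num at h
  · intro h2
    rw [show w + 41474 / 20735 = (w + 2) + 4 / 20735 by ring, h2, zero_add, norm_div] at h
    norm_num at h
  · apply max_eq_left
    have : ‖w‖ ≤ 64 := by
      have := norm_sub_le (w + 41474 / 20735) (41474 / 20735)
      rw [add_sub_cancel_right, h, norm_div] at this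
      norm_num at this
      linarith
    exact log_nonpos (by positivity) (by rw [div_le_one (by norm_num)]; exact this)

theorem tail_lg (x : ℝ) (hx : 64 ≤ |x|) :
    (GA.cst 4951760157141521099596496896).lg (2 ^ 104 / x ^ 2) x = 2 * log (|x| / 64) ∧
      0 ≤ log (|x| / 64) := by
  have p : 0 < |x| := by linarith
  have hx0 : x ≠ 0 := abs_pos.1 p
  refine ⟨?_, log_nonneg (by rw [le_div_iff₀ (by norm_num)]; linarith)⟩
  show log ((4951760157141521099596496896 : ℕ) : ℝ) - log (2 ^ 104 / x ^ 2) = _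
  rw [← log_div (by norm_num) (by positivity), show (2 : ℝ) * log (|x| / 64) =
    log ((|x| / 64) ^ 2) by rw [log_pow]; norm_num]
  congr 1
  rw [div_pow, sq_abs]
  field_simp
  norm_num

theorem inv_range (x : ℝ) (hx : 64 ≤ |x|) : ((1072693248 : ℕ) : ℝ) ≤ 67108864 / x + 1073741824 ∧
    67108864 / x + 1073741824 ≤ ((1074790400 : ℕ) : ℝ) := by
  have p : 0 < |x| := by linarith
  have : |67108864 / x| ≤ 1048576 := by
    rw [abs_div, div_le_iff₀ p, abs_of_pos (by norm_num : (0 : ℝ) < 67108864)]; linarith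
  have := abs_le.1 this
  push_cast
  constructor <;> linarith [this.1, this.2]

theorem neg_range (x : ℝ) (h1 : x ≤ -(290 / 143)) (hx : |x| ≤ 64) :
    ((1040650211 : ℕ) : ℝ) ≤ 67108864 / x + 1073741824 ∧
    67108864 / x + 1073741824 ≤ ((1072693248 : ℕ) : ℝ) := by
  have p : x < 0 := by linarith
  have q := (abs_le.1 hx).1
  have a : -33091613 ≤ 67108864 / x := by rw [le_div_iff_of_neg p]; linarith
  have b : 67108864 / x ≤ -1048576 := by rw [div_le_iff_of_neg p]; linarith
  push_cast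
  constructor <;> linarith

theorem small_tail (x : ℝ) (hx : |x| ≤ 64) : max 0 (log (‖(x : ℂ)‖ / 64)) = 0 := by
  apply max_eq_left
  rw [Complex.norm_real, Real.norm_eq_abs]
  exact log_nonpos (by positivity) (by rw [div_le_one (by norm_num)]; exact hx)

theorem fMu_le (w : ℂ) (h : Mu w) : fMu w + 32 * max 0 (log (‖w‖ / 64)) ≤ bMu + 1 / 4 := by
  rcases h with ⟨h0, h1⟩ | h
  · obtain ⟨x, rfl⟩ : ∃ x : ℝ, w = x := ⟨w.re, Complex.ext rfl (by simpa using h0)⟩
    rw [Complex.ofReal_re] at h1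
    have x0 : x ≠ 0 := by rcases h1 with h1 | h1 <;> intro h <;> linarith
    have x2 : (x : ℂ) + 2 ≠ 0 := by
      have : x + 2 ≠ 0 := by rcases h1 with h1 | h1 <;> intro h <;> linarith
      exact_mod_cast this
    have x0' : (x : ℂ) ≠ 0 := by exact_mod_cast x0
    obtain ⟨c1, c2, c3⟩ := chart_I x x0
    rcases le_total |x| 64 with hx | hx
    · have e := mu_F DmuI_mat (fun _ => trivial) _ x c1 c2 x0' x2
      rw [small_tail x hx, ← bd_mu.1]
      simp only [GA.lg, mul_zero, add_zero] at e ⊢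
      rw [← e]
      rcases h1 with h1 | h1
      · have q := (abs_le.1 hx).2
        have a : 1048576 ≤ 67108864 / x := by rw [le_div_iff₀ (by linarith)]; linarith
        have b : 67108864 / x ≤ 33554432 := by rw [div_le_iff₀ (by linarith)]; linarith
        exact cov_muA _ (by push_cast; linarith) (by push_cast; linarith)
      · exact cov_muB _ (neg_range x h1 hx).1 (neg_range x h1 hx).2
    · have e := mu_F DmuT_mat (fun _ => trivial) _ x c1 c2 x0' x2
      obtain ⟨t1, t2⟩ := tail_lg x hx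
      have k := cov_muC _ (inv_range x hx).1 (inv_range x hx).2
      rw [e, c3, t1, bd_mu.2.1] at k
      rw [Complex.norm_real, Real.norm_eq_abs, max_eq_right t2]
      linarith
  · obtain ⟨w0, w2, w3⟩ := circ_facts h
    rw [w3]
    obtain ⟨s, a, b, ⟨c, d⟩ | ⟨c, d⟩⟩ := chart_L w h
    · have e := mu_F DmuA_mat (fun _ => trivial) s w c d w0 w2
      have k := cov_muD s a b
      rw [e, bd_mu.2.2.1] at k
      simpa [GA.lg] using k
    · have e := mu_F DmuB_mat (fun _ => trivial) s w c d w0 w2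
      have k := cov_muE s a b
      rw [e, bd_mu.2.2.2] at k
      simpa [GA.lg] using k

theorem fPr_le (w : ℂ) (h : Pair w) : fPr w + 32 * max 0 (log (‖w‖ / 64)) ≤ bPr + 1 / 4 := by
  obtain ⟨⟨h0, h1⟩ | h, hp⟩ := h
  · obtain ⟨x, rfl⟩ : ∃ x : ℝ, w = x := ⟨w.re, Complex.ext rfl (by simpa using h0)⟩
    rw [Complex.ofReal_re] at h1 hp
    have x0 : x ≠ 0 := by rcases h1 with h1 | h1 <;> intro h <;> linarith
    have x0' : (x : ℂ) ≠ 0 := by exact_mod_cast x0
    obtain ⟨c1, c2, c3⟩ := chart_I x x0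
    rcases le_total |x| 64 with hx | hx
    · have e := pr_F DprI_mat (fun _ => trivial) _ x c1 c2 x0'
      rw [small_tail x hx, ← bd_pr.1]
      simp only [GA.lg, mul_zero, add_zero] at e ⊢
      rw [← e]
      rcases h1 with h1 | h1
      · have q := (abs_le.1 hx).2
        have a : 1048576 ≤ 67108864 / x := by rw [le_div_iff₀ (by linarith)]; linarith
        have b : 67108864 / x ≤ 33554432 := by rw [div_le_iff₀ (by linarith)]; linarith
        rcases hp with hp | hp
        · have a' : 33554431 ≤ 67108864 / x := by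
            rw [le_div_iff₀ (by linarith)]
            unfold dl at hp
            linarith
          exact cov_prF _ (by push_cast; linarith) (by push_cast; linarith)
        · have b' : 67108864 / x ≤ 23140988 := by rw [div_le_iff₀ (by linarith)]; linarith
          exact cov_prA _ (by push_cast; linarith) (by push_cast; linarith)
      · exact cov_prB _ (neg_range x h1 hx).1 (neg_range x h1 hx).2
    · have e := pr_F DprT_mat (fun _ => trivial) _ x c1 c2 x0'
      obtain ⟨t1, t2⟩ := tail_lg x hx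
      have k := cov_prC _ (inv_range x hx).1 (inv_range x hx).2
      rw [e, c3, t1, bd_pr.2.1] at k
      rw [Complex.norm_real, Real.norm_eq_abs, max_eq_right t2]
      linarith
  · obtain ⟨w0, -, w3⟩ := circ_facts h
    rw [w3]
    obtain ⟨s, a, b, ⟨c, d⟩ | ⟨c, d⟩⟩ := chart_L w h
    · have e := pr_F DprA_mat (fun _ => trivial) s w c d w0
      have k := cov_prD s a b
      rw [e, bd_pr.2.2.1] at k
      simpa [GA.lg] using k
    · have e := pr_F DprB_mat (fun _ => trivial) s w c d w0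
      have k := cov_prE s a b
      rw [e, bd_pr.2.2.2] at k
      simpa [GA.lg] using k

end Vale.Agent.P030
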