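import Vale.Agent.P030.C.Atoms
import Vale.Agent.P030.Defs

/-! Energies and potentials of the atom systems. -/

namespace Vale.Agent.P030

open Real

noncomputable section

def absd (x y : ℕ) : ℕ := Nat.add (Nat.sub x y) (Nat.sub y x)
def eq2 (a b : At) : ℕ :=
  Nat.add (Nat.add (Nat.pow (absd a.x b.x) 2) (Nat.pow (absd a.y b.y) 2)) (Nat.add a.e b.e)
def rowP (a : At) (l : List At) : ℕ := List.rec 1 (fun b _ ih => Nat.mul (eq2 a b) ih) l
def gP (l m : List At) : ℕ := List.rec 1 (fun a _ ih => Nat.mul (rowP a m) ih) l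
def Gl (l m : List At) : ℝ :=
  (l.map fun a => (m.map fun b => log (Complex.normSq (a.pos - b.pos) + a.sm + b.sm)).sum).sum
def AllE (l : List At) : Prop := ∀ a ∈ l, 4194304 ≤ a.e
def toA (c : ℝ) (a : At) : Atom := (a.pos, a.sm, c)
def mkL (p n : List At) : List Atom := p.map (toA (1 / 8)) ++ n.map (toA (-1 / 8))

end

theorem cast_absd (x y : ℕ) : ((absd x y : ℕ) : ℝ) ^ 2 = ((x : ℝ) - y) ^ 2 := by
  show (((x - y) + (y - x) : ℕ) : ℝ) ^ 2 = _
  rcases le_total x y with h | h
  · rw [Nat.sub_eq_zero_of_le h, zero_add, Nat.cast_sub h]; ring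
  · rw [Nat.sub_eq_zero_of_le h, add_zero, Nat.cast_sub h]

theorem cast_eq2 (a b : At) : ((eq2 a b : ℕ) : ℝ) =
    2 ^ 52 * (Complex.normSq (a.pos - b.pos) + a.sm + b.sm) := by
  show (((absd a.x b.x) ^ 2 + (absd a.y b.y) ^ 2 + (a.e + b.e) : ℕ) : ℝ) = _
  push_cast
  rw [cast_absd, cast_absd, Complex.normSq_apply]
  simp only [At.pos, At.sm, Complex.sub_re, Complex.sub_im]
  field_simp
  ring

theorem At.sm_pos {a : At} (h : 4194304 ≤ a.e) : 0 < a.sm := by
  have h1 : (4194304 : ℝ) ≤ a.e := by exact_mod_cast h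
  unfold At.sm; positivity

theorem rowP_spec (a : At) (ha : 4194304 ≤ a.e) (m : List At) (hm : AllE m) :
    0 < (rowP a m : ℝ) ∧ log (rowP a m) = m.length * (52 * log 2) +
      (m.map fun b => log (Complex.normSq (a.pos - b.pos) + a.sm + b.sm)).sum := by
  induction m with
  | nil => simp [rowP]
  | cons b m ih =>
    obtain ⟨i1, i2⟩ := ih (fun c hc => hm c (List.mem_cons_of_mem _ hc))
    have e : (rowP a (b :: m) : ℝ) = (eq2 a b : ℕ) * (rowP a m : ℝ) := by
      show ((eq2 a b * rowP a m : ℕ) : ℝ) = _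
      push_cast; rfl
    have p : 0 < Complex.normSq (a.pos - b.pos) + a.sm + b.sm := by
      have := Complex.normSq_nonneg (a.pos - b.pos)
      have := At.sm_pos ha
      have := At.sm_pos (hm b List.mem_cons_self)
      linarith
    rw [e, cast_eq2]
    refine ⟨by positivity, ?_⟩
    rw [log_mul (by positivity) i1.ne', log_mul (by positivity) p.ne', i2, log_pow]
    simp only [List.map_cons, List.sum_cons, List.length_cons]
    push_cast; ring

theorem gP_spec (l m : List At) (hl : AllE l) (hm : AllE m) :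
    0 < (gP l m : ℝ) ∧ log (gP l m) = l.length * m.length * (52 * log 2) + Gl l m := by
  induction l with
  | nil => simp [gP, Gl]
  | cons a l ih =>
    obtain ⟨i1, i2⟩ := ih (fun c hc => hl c (List.mem_cons_of_mem _ hc))
    obtain ⟨j1, j2⟩ := rowP_spec a (hl a List.mem_cons_self) m hm
    have e : (gP (a :: l) m : ℝ) = (rowP a m : ℝ) * (gP l m : ℝ) := by
      show ((rowP a m * gP l m : ℕ) : ℝ) = _
      push_cast; rfl
    rw [e]
    refine ⟨by positivity, ?_⟩
    rw [log_mul j1.ne' i1.ne', i2, j2]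
    simp only [Gl, List.map_cons, List.sum_cons, List.length_cons]
    push_cast; ring

theorem sum_map_mul_left' {α : Type*} (l : List α) (c : ℝ) (f : α → ℝ) :
    (l.map fun a => c * f a).sum = c * (l.map f).sum := List.sum_map_mul_left l f c

theorem pot_mkL (p n : List At) (z : ℂ) : pot (mkL p n) z = (Fl p z - Fl n z) / 8 := by
  simp only [pot, mkL, List.map_append, List.sum_append, List.map_map, Function.comp_def, toA,
    sum_map_mul_left', Fl, At.Q]
  ring

theorem mass_mkL (p n : List At) : mass (mkL p n) = ((p.length : ℝ) - n.length) / 8 := by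
  simp only [mass, mkL, List.map_append, List.sum_append, List.map_map, Function.comp_def, toA,
    List.map_const', List.sum_replicate, nsmul_eq_mul]
  ring

theorem posA_mkL {p n : List At} (hp : AllE p) (hn : AllE n) : PosA (mkL p n) := by
  intro a ha
  rcases List.mem_append.1 ha with h | h
  · obtain ⟨b, hb, rfl⟩ := List.mem_map.1 h
    exact At.sm_pos (hp b hb)
  · obtain ⟨b, hb, rfl⟩ := List.mem_map.1 h
    exact At.sm_pos (hn b hb)

theorem ener_mkL (p n : List At) :
    ener (mkL p n) = (Gl p p + Gl n n - Gl p n - Gl n p) / 64 := by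
  simp only [ener, mkL, List.map_append, List.sum_append, List.map_map, Function.comp_def, toA,
    sum_map_mul_left', Gl, List.sum_map_add]
  ring

theorem ener_ge {p n : List At} (hp : AllE p) (hn : AllE n) (i j : ℕ)
    (h : Nat.ble (Nat.mul (Nat.pow 2 i) (Nat.mul (gP p n) (gP n p)))
      (Nat.mul (Nat.pow 2 j) (Nat.mul (gP p p) (gP n n))) = true) :
    ((i : ℝ) - j - 52 * ((p.length : ℝ) - n.length) ^ 2) * log 2 / 64 ≤ ener (mkL p n) := by
  obtain ⟨a1, a2⟩ := gP_spec p p hp hp
  obtain ⟨b1, b2⟩ := gP_spec n n hn hn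
  obtain ⟨c1, c2⟩ := gP_spec p n hp hn
  obtain ⟨d1, d2⟩ := gP_spec n p hn hp
  have h1 : 2 ^ i * (gP p n * gP n p) ≤ 2 ^ j * (gP p p * gP n n) := Nat.le_of_ble_eq_true h
  have h2 : (2 : ℝ) ^ i * (gP p n * gP n p) ≤ 2 ^ j * (gP p p * gP n n) := by exact_mod_cast h1
  have h3 := log_le_log (by positivity) h2
  rw [log_mul (by positivity) (mul_pos c1 d1).ne', log_mul (by positivity) (mul_pos a1 b1).ne',
    log_mul c1.ne' d1.ne', log_mul a1.ne' b1.ne', log_pow, log_pow, a2, b2, c2, d2] at h3
  rw [ener_mkL]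
  linarith

theorem logQ_lip (a : At) (ha : 4194304 ≤ a.e) (z z' : ℂ) (h : ‖z - z'‖ ≤ 3 * dl) :
    log (a.Q z) ≤ log (a.Q z') + 1 / 2 ^ 23 := by
  have h1 : (4194304 : ℝ) ≤ a.e := by exact_mod_cast ha
  have hs : 1 / 2 ^ 30 ≤ a.sm := by
    unfold At.sm; rw [div_le_div_iff₀ (by norm_num) (by norm_num)]; linarith
  have t : ‖z - a.pos‖ ≤ ‖z' - a.pos‖ + 3 * dl := by
    have := norm_add_le (z - z') (z' - a.pos)
    rw [sub_add_sub_cancel] at this
    linarith
  have p := a.Q_pos (by omega) z
  have p' := a.Q_pos (by omega) z'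
  have key : a.Q z ≤ a.Q z' * (1 + 1 / 2 ^ 23) := by
    unfold At.Q
    rw [Complex.normSq_eq_norm_sq, Complex.normSq_eq_norm_sq]
    have r0 := norm_nonneg (z' - a.pos)
    have t2 := pow_le_pow_left₀ (norm_nonneg _) t 2
    set r := ‖z' - a.pos‖
    unfold dl at t2
    nlinarith [sq_nonneg (r - 1 / 2 ^ 15)]
  have := log_le_log p key
  rw [log_mul p'.ne' (by norm_num)] at this
  have := log_le_sub_one_of_pos (show (0 : ℝ) < 1 + 1 / 2 ^ 23 by norm_num)
  linarith

theorem Fl_lip (l : List At) (hl : AllE l) (z z' : ℂ) (h : ‖z - z'‖ ≤ 3 * dl) :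
    Fl l z ≤ Fl l z' + l.length / 2 ^ 23 := by
  induction l with
  | nil => simp [Fl]
  | cons a l ih =>
    have i := ih (fun c hc => hl c (List.mem_cons_of_mem _ hc))
    have j := logQ_lip a (hl a List.mem_cons_self) z z' h
    simp only [Fl, List.map_cons, List.sum_cons, List.length_cons] at i ⊢
    push_cast
    linarith

theorem allE_of (l : List At) (h : l.all (fun a => Nat.ble 4194304 a.e) = true) : AllE l := by
  intro a ha
  exact Nat.le_of_ble_eq_true (List.all_eq_true.1 h a ha)

theorem allE_nil : AllE [] := fun _ h => absurd h (by simp)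
theorem allE_P1 : AllE aP1 := allE_of _ (by decide +kernel)
theorem allE_N1 : AllE aN1 := allE_of _ (by decide +kernel)
theorem allE_P2 : AllE aP2 := allE_of _ (by decide +kernel)
theorem allE_P3 : AllE aP3 := allE_of _ (by decide +kernel)
theorem allE_P4 : AllE aP4 := allE_of _ (by decide +kernel)
theorem allE_N4 : AllE aN4 := allE_of _ (by decide +kernel)
theorem len_P1 : aP1.length = 128 := by decide +kernel
theorem len_N1 : aN1.length = 128 := by decide +kernel
theorem len_P2 : aP2.length = 128 := by decide +kernel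
theorem len_P3 : aP3.length = 104 := by decide +kernel
theorem len_P4 : aP4.length = 79 := by decide +kernel
theorem len_N4 : aN4.length = 55 := by decide +kernel

theorem en1 : (-67914 : ℝ) * log 2 / 64 ≤ ener (mkL aP1 aN1) := by
  have := ener_ge allE_P1 allE_N1 0 67914 (by decide +kernel)
  rw [len_P1, len_N1] at this
  convert this using 3
  norm_num

theorem en2 : (816721 - 52 * 128 ^ 2 : ℝ) * log 2 / 64 ≤ ener (mkL aP2 []) := by
  have := ener_ge allE_P2 allE_nil 816721 0 (by decide +kernel)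
  rw [len_P2] at this
  convert this using 3
  norm_num

theorem en3 : (585892 - 52 * 104 ^ 2 : ℝ) * log 2 / 64 ≤ ener (mkL aP3 []) := by
  have := ener_ge allE_P3 allE_nil 585892 0 (by decide +kernel)
  rw [len_P3] at this
  convert this using 3
  norm_num

theorem en4 : (18924 - 52 * 24 ^ 2 : ℝ) * log 2 / 64 ≤ ener (mkL aP4 aN4) := by
  have := ener_ge allE_P4 allE_N4 18924 0 (by decide +kernel)
  rw [len_P4, len_N4] at this
  convert this using 3
  norm_num

end Vale.Agent.P030
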