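import Vale.Agent.P030.C.Chk

/-! Soundness of the interval checker. -/

namespace Vale.Agent.P030

open Real

theorem qv_nonneg {A B C : ℕ} (h : B * B ≤ 4 * A * C) (s : ℝ) : 0 ≤ qv A B C s := by
  have h' : (B : ℝ) * B ≤ 4 * A * C := by exact_mod_cast h
  have hA : (0 : ℝ) ≤ A := Nat.cast_nonneg A
  have hC : (0 : ℝ) ≤ C := Nat.cast_nonneg C
  unfold qv
  rcases hA.eq_or_lt with h0 | h0
  · have : (B : ℝ) = 0 := by
      rw [← h0] at h'
      nlinarith [Nat.cast_nonneg (α := ℝ) B]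
    rw [← h0, this]; simp
  · by_contra hneg
    push Not at hneg
    nlinarith [sq_nonneg (2 * (A : ℝ) * s - B)]

theorem qv_deriv_sq {A B C : ℕ} (h : B * B ≤ 4 * A * C) (s : ℝ) :
    (2 * A * s - B) ^ 2 ≤ 4 * A * qv A B C s := by
  have h' : (B : ℝ) * B ≤ 4 * A * C := by exact_mod_cast h
  unfold qv
  nlinarith

theorem qv_lower {A B C : ℕ} (h : B * B ≤ 4 * A * C) (s0 s l : ℝ) (h0 : s0 ≤ s) (h1 : s ≤ s0 + l)
    (hl : 4 * A * l ^ 2 ≤ qv A B C s0) : qv A B C s0 / 4 ≤ qv A B C s := by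
  have hA : (0 : ℝ) ≤ A := Nat.cast_nonneg A
  have hd := qv_deriv_sq h s0
  have hq := qv_nonneg h s0
  set q := qv A B C s0 with hqdef
  set d := s - s0 with hddef
  set g := 2 * (A : ℝ) * s0 - B with hg
  have e : qv A B C s = q + g * d + A * d ^ 2 := by
    rw [hqdef, hg, hddef]; unfold qv; ring
  have hd0 : 0 ≤ d := by linarith
  have hdl : d ≤ l := by linarith
  have hy : A * d ^ 2 ≤ q / 4 := by
    have : d ^ 2 ≤ l ^ 2 := by nlinarith
    nlinarith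
  have hy0 : 0 ≤ A * d ^ 2 := by positivity
  have h2 : (g * d) ^ 2 ≤ (3 * q / 4 + A * d ^ 2) ^ 2 := by
    have : (g * d) ^ 2 ≤ 4 * (A * d ^ 2) * q := by
      have := mul_le_mul_of_nonneg_right hd (sq_nonneg d)
      nlinarith
    nlinarith [mul_nonneg (sub_nonneg.2 hy) (show 0 ≤ 9 * q / 4 - A * d ^ 2 by linarith)]
  have h3 := abs_le_of_sq_le_sq' h2 (by linarith)
  rw [e]; linarith [h3.1]

theorem chord_aux {A B C : ℕ} (h : B * B ≤ 4 * A * C) (s0 s1 ε : ℝ) (hε : ε = 1 ∨ ε = -1)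
    (hq : 0 < qv A B C s0) (hl : 4 * A * (s1 - s0) ^ 2 ≤ qv A B C s0) :
    ConvexOn ℝ (Set.Icc s0 s1)
      (fun s => ε * log (qv A B C s) + 4 * (A / qv A B C s0) * s ^ 2) := by
  have hA : (0 : ℝ) ≤ A := Nat.cast_nonneg A
  have hlow : ∀ s ∈ Set.Icc s0 s1, qv A B C s0 / 4 ≤ qv A B C s := fun s hs =>
    qv_lower h s0 s (s1 - s0) hs.1 (by linarith [hs.2]) hl
  have hpos : ∀ s ∈ Set.Icc s0 s1, 0 < qv A B C s := fun s hs => by linarith [hlow s hs]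
  have hq' : ∀ s, HasDerivAt (qv A B C) (2 * A * s - B) s := fun s => by
    have := (((hasDerivAt_pow 2 s).const_mul (A : ℝ)).sub
      ((hasDerivAt_id s).const_mul (B : ℝ))).add_const (C : ℝ)
    exact this.congr_deriv (by simp; ring)
  have hg : ∀ s, HasDerivAt (fun s : ℝ => 2 * (A : ℝ) * s - B) (2 * A) s := fun s => by
    simpa using ((hasDerivAt_id s).const_mul (2 * (A : ℝ))).sub_const (B : ℝ)
  have d1 : ∀ s ∈ Set.Icc s0 s1, HasDerivAt
      (fun s => ε * log (qv A B C s) + 4 * (A / qv A B C s0) * s ^ 2)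
      (ε * ((2 * A * s - B) / qv A B C s) + 4 * (A / qv A B C s0) * (2 * s)) s := fun s hs => by
    have := (((hq' s).log (hpos s hs).ne').const_mul ε).add
      ((hasDerivAt_pow 2 s).const_mul (4 * (A / qv A B C s0)))
    exact this.congr_deriv (by simp)
  have d2 : ∀ s ∈ Set.Icc s0 s1, HasDerivAt
      (fun s => ε * ((2 * A * s - B) / qv A B C s) + 4 * (A / qv A B C s0) * (2 * s))
      (ε * ((2 * A * qv A B C s - (2 * A * s - B) * (2 * A * s - B)) / qv A B C s ^ 2) +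
        4 * (A / qv A B C s0) * 2) s := fun s hs => by
    have := ((((hg s).div (hq' s) (hpos s hs).ne')).const_mul ε).add
      (((hasDerivAt_id s).const_mul 2).const_mul (4 * (A / qv A B C s0)))
    exact this.congr_deriv (by simp)
  refine convexOn_of_hasDerivWithinAt2_nonneg (convex_Icc s0 s1)
    (fun s hs => (d1 s hs).continuousAt.continuousWithinAt)
    (fun s hs => (d1 s (interior_subset hs)).hasDerivWithinAt)
    (fun s hs => (d2 s (interior_subset hs)).hasDerivWithinAt) (fun s hs => ?_)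
  have hs' := interior_subset hs
  have p := hpos s hs'
  have lo := hlow s hs'
  have hd := qv_deriv_sq h s
  set q := qv A B C s
  set q0 := qv A B C s0
  set g := 2 * (A : ℝ) * s - B
  have b1 : (2 * A * q - g * g) / q ^ 2 ≤ 2 * A / q := by
    rw [div_le_div_iff₀ (by positivity) p]
    nlinarith [mul_nonneg (mul_self_nonneg g) p.le]
  have b2 : -(2 * A / q) ≤ (2 * A * q - g * g) / q ^ 2 := by
    rw [← neg_div, div_le_div_iff₀ p (by positivity)]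
    nlinarith [mul_le_mul_of_nonneg_right hd p.le]
  have b3 : 2 * A / q ≤ 4 * (A / q0) * 2 := by
    rw [show 4 * (A / q0) * 2 = 8 * (A : ℝ) / q0 by ring, div_le_div_iff₀ p hq]
    nlinarith
  rcases hε with rfl | rfl <;> linarith

theorem chord {A B C : ℕ} (h : B * B ≤ 4 * A * C) (s0 s1 a b : ℝ) (h01 : s0 ≤ s1) (ha : 0 ≤ a)
    (hb : 0 ≤ b) (hab : a + b = 1) (hq : 0 < qv A B C s0)
    (hl : 4 * A * (s1 - s0) ^ 2 ≤ qv A B C s0) :
    |log (qv A B C (a * s0 + b * s1)) - (a * log (qv A B C s0) + b * log (qv A B C s1))| ≤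
      (s1 - s0) ^ 2 * (A / qv A B C s0) := by
  have hK : (0 : ℝ) ≤ A / qv A B C s0 := by positivity
  have key : ∀ ε : ℝ, ε = 1 ∨ ε = -1 → ε * log (qv A B C (a * s0 + b * s1)) ≤
      a * (ε * log (qv A B C s0)) + b * (ε * log (qv A B C s1)) +
        (s1 - s0) ^ 2 * (A / qv A B C s0) := fun ε hε => by
    have c := (chord_aux h s0 s1 ε hε hq hl).2 (Set.left_mem_Icc.2 h01) (Set.right_mem_Icc.2 h01)
      ha hb hab
    simp only [smul_eq_mul] at c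
    set K := (A : ℝ) / qv A B C s0
    have hb' : b = 1 - a := by linarith
    have e : a * (4 * K * s0 ^ 2) + b * (4 * K * s1 ^ 2) - 4 * K * (a * s0 + b * s1) ^ 2 =
        (4 * a * b) * ((s1 - s0) ^ 2 * K) := by rw [hb']; ring
    have e2 : 4 * a * b ≤ 1 := by rw [hb']; nlinarith [sq_nonneg (2 * a - 1)]
    have e3 : (4 * a * b) * ((s1 - s0) ^ 2 * K) ≤ (s1 - s0) ^ 2 * K := by
      have : 0 ≤ (s1 - s0) ^ 2 * K := by positivity
      nlinarith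
    nlinarith
  have k1 := key 1 (Or.inl rfl)
  have k2 := key (-1) (Or.inr rfl)
  rw [abs_le]; constructor <;> linarith

noncomputable section

def QL.Pr (l : QL) (s : ℝ) : ℝ := QL.rec 1 (fun A B C _ _ ih => qv A B C s * ih) l
def QM.Pr (l : QM) (s : ℝ) : ℝ := QM.rec 1 (fun A B C _ m _ ih => qv A B C s ^ m * ih) l
def QL.K (l : QL) (s : ℝ) : ℝ := QL.rec 0 (fun A B C _ _ ih => A / qv A B C s + ih) l
def QM.K (l : QM) (s : ℝ) : ℝ := QM.rec 0 (fun A B C _ m _ ih => m * (A / qv A B C s) + ih) l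

end

theorem QL.ok_cons {H A B C S : ℕ} {t : QL} (h : (QL.cons A B C S t).ok H = true) :
    B * B ≤ 4 * A * C ∧ S = A * H ∧ t.ok H = true := by
  have : (Nat.ble (B * B) (4 * A * C) && Nat.beq S (A * H) && t.ok H) = true := h
  simp only [Bool.and_eq_true, Nat.ble_eq, Nat.beq_eq] at this
  exact ⟨this.1.1, this.1.2, this.2⟩

theorem QM.ok_cons {H A B C S m : ℕ} {t : QM} (h : (QM.cons A B C S m t).ok H = true) :
    B * B ≤ 4 * A * C ∧ S = A * H ∧ 1 ≤ m ∧ t.ok H = true := by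
  have : (Nat.ble (B * B) (4 * A * C) && Nat.beq S (A * H) && Nat.ble 1 m && t.ok H) = true := h
  simp only [Bool.and_eq_true, Nat.ble_eq, Nat.beq_eq] at this
  exact ⟨this.1.1.1, this.1.1.2, this.1.2, this.2⟩

theorem QL.K_nonneg {H : ℕ} (l : QL) (h : l.ok H = true) (s : ℝ) : 0 ≤ l.K s := by
  induction l with
  | nil => exact le_rfl
  | cons A B C S t ih =>
    obtain ⟨h1, -, h3⟩ := QL.ok_cons h
    have := qv_nonneg h1 s
    have := ih h3
    show 0 ≤ A / qv A B C s + t.K s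
    positivity

theorem QM.K_nonneg {H : ℕ} (l : QM) (h : l.ok H = true) (s : ℝ) : 0 ≤ l.K s := by
  induction l with
  | nil => exact le_rfl
  | cons A B C S m t ih =>
    obtain ⟨h1, -, -, h3⟩ := QM.ok_cons h
    have := qv_nonneg h1 s
    have := ih h3
    show 0 ≤ m * (A / qv A B C s) + t.K s
    positivity

theorem QL.F_eq (l : QL) (s : ℝ) (h : l.Pr s ≠ 0) : l.F s = log (l.Pr s) := by
  induction l with
  | nil => exact log_one.symm
  | cons A B C S t ih =>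
    have h' : qv A B C s * t.Pr s ≠ 0 := h
    show log (qv A B C s) + t.F s = log (qv A B C s * t.Pr s)
    rw [log_mul (left_ne_zero_of_mul h') (right_ne_zero_of_mul h'), ih (right_ne_zero_of_mul h')]

theorem QM.F_eq (l : QM) (s : ℝ) (h : l.Pr s ≠ 0) : l.F s = log (l.Pr s) := by
  induction l with
  | nil => exact log_one.symm
  | cons A B C S m t ih =>
    have h' : qv A B C s ^ m * t.Pr s ≠ 0 := h
    show m * log (qv A B C s) + t.F s = log (qv A B C s ^ m * t.Pr s)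
    rw [log_mul (left_ne_zero_of_mul h') (right_ne_zero_of_mul h'), ih (right_ne_zero_of_mul h'),
      log_pow]

theorem small_of {A q l : ℝ} (hq : 0 < q) (h : 4 * l ^ 2 * (A / q) ≤ 1) : 4 * A * l ^ 2 ≤ q := by
  rw [show 4 * l ^ 2 * (A / q) = 4 * A * l ^ 2 / q by ring, div_le_one hq] at h
  exact h

theorem QL.chord {H : ℕ} (l : QL) (h : l.ok H = true) (s0 s1 a b : ℝ) (h01 : s0 ≤ s1) (ha : 0 ≤ a)
    (hb : 0 ≤ b) (hab : a + b = 1) (hq : l.Pr s0 ≠ 0) (hl : 4 * (s1 - s0) ^ 2 * l.K s0 ≤ 1) :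
    |l.F (a * s0 + b * s1) - (a * l.F s0 + b * l.F s1)| ≤ (s1 - s0) ^ 2 * l.K s0 := by
  induction l with
  | nil => simp [QL.F, QL.K]
  | cons A B C S t ih =>
    obtain ⟨h1, -, h3⟩ := QL.ok_cons h
    have h' : qv A B C s0 * t.Pr s0 ≠ 0 := hq
    have hl' : 4 * (s1 - s0) ^ 2 * (A / qv A B C s0 + t.K s0) ≤ 1 := hl
    have p : 0 < qv A B C s0 := (qv_nonneg h1 s0).lt_of_ne' (left_ne_zero_of_mul h')
    have k1 : 0 ≤ 4 * (s1 - s0) ^ 2 * (A / qv A B C s0) := by positivity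
    have k2 : 0 ≤ 4 * (s1 - s0) ^ 2 * t.K s0 := by
      have := t.K_nonneg h3 s0
      positivity
    have c1 := Vale.Agent.P030.chord h1 s0 s1 a b h01 ha hb hab p (small_of p (by nlinarith))
    have c2 := ih h3 (right_ne_zero_of_mul h') (by nlinarith)
    show |log (qv A B C (a * s0 + b * s1)) + t.F (a * s0 + b * s1) -
      (a * (log (qv A B C s0) + t.F s0) + b * (log (qv A B C s1) + t.F s1))| ≤
      (s1 - s0) ^ 2 * (A / qv A B C s0 + t.K s0)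
    rw [abs_le] at c1 c2 ⊢
    constructor <;> nlinarith [c1.1, c1.2, c2.1, c2.2]

theorem QM.chord {H : ℕ} (l : QM) (h : l.ok H = true) (s0 s1 a b : ℝ) (h01 : s0 ≤ s1) (ha : 0 ≤ a)
    (hb : 0 ≤ b) (hab : a + b = 1) (hq : l.Pr s0 ≠ 0) (hl : 4 * (s1 - s0) ^ 2 * l.K s0 ≤ 1) :
    |l.F (a * s0 + b * s1) - (a * l.F s0 + b * l.F s1)| ≤ (s1 - s0) ^ 2 * l.K s0 := by
  induction l with
  | nil => simp [QM.F, QM.K]
  | cons A B C S m t ih =>
    obtain ⟨h1, -, hm, h3⟩ := QM.ok_cons h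
    have hm' : (1 : ℝ) ≤ m := by exact_mod_cast hm
    have h' : qv A B C s0 ^ m * t.Pr s0 ≠ 0 := hq
    have hl' : 4 * (s1 - s0) ^ 2 * (m * (A / qv A B C s0) + t.K s0) ≤ 1 := hl
    have p : 0 < qv A B C s0 := (qv_nonneg h1 s0).lt_of_ne' (by
      intro h0
      apply left_ne_zero_of_mul h'
      rw [h0]; exact zero_pow (by omega))
    have k1 : 0 ≤ 4 * (s1 - s0) ^ 2 * (A / qv A B C s0) := by positivity
    have k2 : 0 ≤ 4 * (s1 - s0) ^ 2 * t.K s0 := by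
      have := t.K_nonneg h3 s0
      positivity
    have k3 := mul_le_mul_of_nonneg_right hm' k1
    have c1 := Vale.Agent.P030.chord h1 s0 s1 a b h01 ha hb hab p (small_of p (by nlinarith))
    have c2 := ih h3 (right_ne_zero_of_mul h') (by nlinarith)
    show |m * log (qv A B C (a * s0 + b * s1)) + t.F (a * s0 + b * s1) -
      (a * (m * log (qv A B C s0) + t.F s0) + b * (m * log (qv A B C s1) + t.F s1))| ≤
      (s1 - s0) ^ 2 * (m * (A / qv A B C s0) + t.K s0)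
    rw [abs_le] at c1 c2 ⊢
    have m0 : (0 : ℝ) ≤ m := by linarith
    have d1 := mul_le_mul_of_nonneg_left c1.1 m0
    have d2 := mul_le_mul_of_nonneg_left c1.2 m0
    constructor <;> nlinarith [c2.1, c2.2]

theorem cast_q {A B C : ℕ} (h : B * B ≤ 4 * A * C) (n : ℕ) :
    ((Nat.sub (Nat.add (Nat.mul A (Nat.mul n n)) C) (Nat.mul B n) : ℕ) : ℝ) = qv A B C n := by
  have h0 := qv_nonneg h n
  have : B * n ≤ A * (n * n) + C := by
    have : ((B * n : ℕ) : ℝ) ≤ ((A * (n * n) + C : ℕ) : ℝ) := by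
      unfold qv at h0; push_cast; nlinarith
    exact_mod_cast this
  show ((A * (n * n) + C - B * n : ℕ) : ℝ) = _
  rw [Nat.cast_sub this]; unfold qv; push_cast; ring

theorem div_bound (A H q : ℕ) : (H : ℝ) * (A / q) ≤ ((A * H / q : ℕ) : ℝ) + 1 := by
  rcases Nat.eq_zero_or_pos q with rfl | hq
  · simp
  · have h1 : A * H < q * (A * H / q + 1) := Nat.lt_mul_div_succ _ hq
    have h2 : ((A * H : ℕ) : ℝ) < ((q * (A * H / q + 1) : ℕ) : ℝ) := by exact_mod_cast h1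
    have hq' : (0 : ℝ) < q := by exact_mod_cast hq
    rw [← mul_div_assoc, div_le_iff₀ hq']
    push_cast at h2
    nlinarith

theorem ev_spec {H : ℕ} (n : ℕ) (l : QL) (h : l.ok H = true) (k : ℕ → ℕ → Bool) (P T : ℕ)
    (he : ev n (Nat.mul n n) l k P T = true) : ∃ P' T' : ℕ, k P' T' = true ∧
      (P' : ℝ) = P * l.Pr n ∧ T + H * l.K n ≤ T' + (l.len : ℝ) := by
  induction l generalizing P T with
  | nil => exact ⟨P, T, he, by simp [QL.Pr], by simp [QL.K, QL.len]⟩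
  | cons A B C S t ih =>
    obtain ⟨h1, h2, h3⟩ := QL.ok_cons h
    obtain ⟨P', T', a, b, c⟩ := ih h3 _ _ he
    have e := cast_q h1 n
    set q := Nat.sub (Nat.add (Nat.mul A (Nat.mul n n)) C) (Nat.mul B n)
    refine ⟨P', T', a, ?_, ?_⟩
    · rw [b]
      show ((P * q : ℕ) : ℝ) * t.Pr n = P * (qv A B C n * t.Pr n)
      push_cast; rw [e]; ring
    · have c' : ((T + S / q : ℕ) : ℝ) + H * t.K n ≤ T' + (t.len : ℝ) := c
      show T + H * (A / qv A B C n + t.K n) ≤ T' + ((t.len + 1 : ℕ) : ℝ)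
      have := div_bound A H q
      rw [← e]
      rw [h2, Nat.cast_add] at c'
      push_cast
      nlinarith

theorem evm_spec {H : ℕ} (n : ℕ) (l : QM) (h : l.ok H = true) (k : ℕ → ℕ → Bool) (P T : ℕ)
    (he : evm n (Nat.mul n n) l k P T = true) : ∃ P' T' : ℕ, k P' T' = true ∧
      (P' : ℝ) = P * l.Pr n ∧ T + H * l.K n ≤ (T' : ℝ) := by
  induction l generalizing P T with
  | nil => exact ⟨P, T, he, by simp [QM.Pr], by simp [QM.K]⟩
  | cons A B C S m t ih =>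
    obtain ⟨h1, h2, -, h3⟩ := QM.ok_cons h
    obtain ⟨P', T', a, b, c⟩ := ih h3 _ _ he
    have e := cast_q h1 n
    set q := Nat.sub (Nat.add (Nat.mul A (Nat.mul n n)) C) (Nat.mul B n)
    refine ⟨P', T', a, ?_, ?_⟩
    · rw [b]
      show ((P * q ^ m : ℕ) : ℝ) * t.Pr n = P * (qv A B C n ^ m * t.Pr n)
      push_cast; rw [e]; ring
    · have c' : ((T + m * (S / q + 1) : ℕ) : ℝ) + H * t.K n ≤ (T' : ℝ) := c
      show T + H * (m * (A / qv A B C n) + t.K n) ≤ (T' : ℝ)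
      have := mul_le_mul_of_nonneg_left (div_bound A H q) (Nat.cast_nonneg (α := ℝ) m)
      rw [← e]
      rw [h2, Nat.cast_add, Nat.cast_mul, Nat.cast_add] at c'
      push_cast at c' ⊢
      nlinarith

noncomputable def Dat.K (D : Dat) (s : ℝ) : ℝ :=
  D.p1.K s + D.p2.K s + D.pm.K s + (D.n1.K s + D.n2.K s + D.nm.K s)

noncomputable def Dat.bd (D : Dat) : ℝ := log (D.Rn / D.Rd)

theorem Dat.ok_iff {D : Dat} (h : D.ok = true) : D.p1.ok D.H = true ∧ D.p2.ok D.H = true ∧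
    D.n1.ok D.H = true ∧ D.n2.ok D.H = true ∧ D.pm.ok D.H = true ∧ D.nm.ok D.H = true ∧
    D.p1.len + D.p2.len + D.n1.len + D.n2.len ≤ D.c ∧ 1 ≤ D.Rd ∧ 1 ≤ D.H := by
  simpa only [Dat.ok, Bool.and_eq_true, Nat.ble_eq, and_assoc] using h

theorem vtx_spec {D : Dat} (h : D.ok = true) (n l : ℕ) (hv : vtx D n (Nat.mul n n) l = true) :
    D.p1.Pr n ≠ 0 ∧ D.p2.Pr n ≠ 0 ∧ D.pm.Pr n ≠ 0 ∧ D.n1.Pr n ≠ 0 ∧ D.n2.Pr n ≠ 0 ∧
      D.nm.Pr n ≠ 0 ∧ D.F n ≤ D.bd ∧ 4 * (l : ℝ) ^ 2 * D.K n ≤ 1 := by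
  obtain ⟨o1, o2, o3, o4, o5, o6, o7, o8, o9⟩ := Dat.ok_iff h
  obtain ⟨P1, T1, a1, b1, c1⟩ := ev_spec n _ o1 _ _ _ hv
  obtain ⟨P2, T2, a2, b2, c2⟩ := ev_spec n _ o2 _ _ _ a1
  obtain ⟨P3, T3, a3, b3, c3⟩ := evm_spec n _ o5 _ _ _ a2
  obtain ⟨P4, T4, a4, b4, c4⟩ := ev_spec n _ o3 _ _ _ a3
  obtain ⟨P5, T5, a5, b5, c5⟩ := ev_spec n _ o4 _ _ _ a4
  obtain ⟨P6, T6, a6, b6, c6⟩ := evm_spec n _ o6 _ _ _ a5
  simp only [Bool.and_eq_true, Nat.ble_eq] at a6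
  obtain ⟨⟨u1, u2⟩, u3⟩ := a6
  have u1' : (1 : ℝ) ≤ P3 := by exact_mod_cast u1
  have u2' : (P3 : ℝ) * D.Rd ≤ P6 * D.Rn := by exact_mod_cast u2
  have u3' : 4 * ((l : ℝ) * l) * T6 ≤ D.H := by exact_mod_cast u3
  have o7' : (D.p1.len : ℝ) + D.p2.len + D.n1.len + D.n2.len ≤ D.c := by exact_mod_cast o7
  have o8' : (1 : ℝ) ≤ D.Rd := by exact_mod_cast o8
  have o9' : (1 : ℝ) ≤ D.H := by exact_mod_cast o9
  have e3 : (P3 : ℝ) = D.p1.Pr n * D.p2.Pr n * D.pm.Pr n := by rw [b3, b2, b1]; simp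
  have e6 : (P6 : ℝ) = D.n1.Pr n * D.n2.Pr n * D.nm.Pr n := by rw [b6, b5, b4]; simp
  have p3 : (0 : ℝ) < P3 := by linarith
  have p6n : (0 : ℝ) < P6 * D.Rn := by nlinarith
  have p6 : (0 : ℝ) < P6 := (Nat.cast_nonneg P6).lt_of_ne' (by
    intro h0; rw [h0] at p6n; simp at p6n)
  have z3 : D.p1.Pr n * D.p2.Pr n * D.pm.Pr n ≠ 0 := e3 ▸ p3.ne'
  have z6 : D.n1.Pr n * D.n2.Pr n * D.nm.Pr n ≠ 0 := e6 ▸ p6.ne'
  have y1 := left_ne_zero_of_mul (left_ne_zero_of_mul z3)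
  have y2 := right_ne_zero_of_mul (left_ne_zero_of_mul z3)
  have y3 := right_ne_zero_of_mul z3
  have y4 := left_ne_zero_of_mul (left_ne_zero_of_mul z6)
  have y5 := right_ne_zero_of_mul (left_ne_zero_of_mul z6)
  have y6 := right_ne_zero_of_mul z6
  refine ⟨y1, y2, y3, y4, y5, y6, ?_, ?_⟩
  · unfold Dat.F Dat.bd
    rw [QL.F_eq _ _ y1, QL.F_eq _ _ y2, QM.F_eq _ _ y3, QL.F_eq _ _ y4, QL.F_eq _ _ y5,
      QM.F_eq _ _ y6, ← log_mul y1 y2, ← log_mul (mul_ne_zero y1 y2) y3, ← log_mul y4 y5,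
      ← log_mul (mul_ne_zero y4 y5) y6, ← e3, ← e6, ← log_div p3.ne' p6.ne']
    apply log_le_log (by positivity)
    rw [div_le_div_iff₀ p6 (by linarith)]
    linarith
  · have : D.H * D.K n ≤ (T6 : ℝ) := by
      unfold Dat.K
      linarith only [c1, c2, c3, c4, c5, c6, o7']
    have h2 : (D.H : ℝ) * (4 * (l : ℝ) ^ 2 * D.K n) ≤ D.H * 1 := by
      have := mul_le_mul_of_nonneg_left this (show (0 : ℝ) ≤ 4 * ((l : ℝ) * l) by positivity)
      linarith only [this, u3']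
    exact le_of_mul_le_mul_left h2 (by linarith)

def Cov (D : Dat) (lo hi : ℕ) : Prop := ∀ s : ℝ, lo ≤ s → s ≤ hi → D.F s ≤ D.bd + 1 / 4

theorem seg_aux {a b w R x1 x2 x3 x4 x5 x6 y1 y2 y3 y4 y5 y6 z1 z2 z3 z4 z5 z6 k1 k2 k3 k4 k5 k6 : ℝ}
    (ha : 0 ≤ a) (hb : 0 ≤ b) (hab : a + b = 1)
    (c1 : |z1 - (a * x1 + b * y1)| ≤ w * k1) (c2 : |z2 - (a * x2 + b * y2)| ≤ w * k2)
    (c3 : |z3 - (a * x3 + b * y3)| ≤ w * k3) (c4 : |z4 - (a * x4 + b * y4)| ≤ w * k4)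
    (c5 : |z5 - (a * x5 + b * y5)| ≤ w * k5) (c6 : |z6 - (a * x6 + b * y6)| ≤ w * k6)
    (h0 : x1 + x2 + x3 - (x4 + x5 + x6) ≤ R) (h1 : y1 + y2 + y3 - (y4 + y5 + y6) ≤ R)
    (hK : 4 * w * (k1 + k2 + k3 + (k4 + k5 + k6)) ≤ 1) :
    z1 + z2 + z3 - (z4 + z5 + z6) ≤ R + 1 / 4 := by
  have f0 := mul_le_mul_of_nonneg_left h0 ha
  have f1 := mul_le_mul_of_nonneg_left h1 hb
  have fb : a * R + b * R = R := by rw [← add_mul, hab, one_mul]
  linarith [(abs_le.1 c1).2, (abs_le.1 c2).2, (abs_le.1 c3).2, (abs_le.1 c4).1, (abs_le.1 c5).1,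
    (abs_le.1 c6).1]

theorem six_aux {w k1 k2 k3 k4 k5 k6 : ℝ} (hw : 0 ≤ w) (h1 : 0 ≤ k1) (h2 : 0 ≤ k2) (h3 : 0 ≤ k3)
    (h4 : 0 ≤ k4) (h5 : 0 ≤ k5) (h6 : 0 ≤ k6) (hK : 4 * w * (k1 + k2 + k3 + (k4 + k5 + k6)) ≤ 1) :
    4 * w * k1 ≤ 1 ∧ 4 * w * k2 ≤ 1 ∧ 4 * w * k3 ≤ 1 ∧ 4 * w * k4 ≤ 1 ∧ 4 * w * k5 ≤ 1 ∧
      4 * w * k6 ≤ 1 := by
  have := mul_nonneg hw h1
  have := mul_nonneg hw h2
  have := mul_nonneg hw h3
  have := mul_nonneg hw h4
  have := mul_nonneg hw h5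
  have := mul_nonneg hw h6
  refine ⟨?_, ?_, ?_, ?_, ?_, ?_⟩ <;> linarith

theorem seg {D : Dat} (h : D.ok = true) (n v : ℕ) (hnv : n ≤ v)
    (hv : vtx D n (Nat.mul n n) (Nat.sub v n) = true) (h1 : D.F v ≤ D.bd) : Cov D n v := by
  obtain ⟨o1, o2, o3, o4, o5, o6, -⟩ := Dat.ok_iff h
  obtain ⟨y1, y2, y3, y4, y5, y6, h0, hK⟩ := vtx_spec h n _ hv
  have e : ((Nat.sub v n : ℕ) : ℝ) = v - n := Nat.cast_sub hnv
  rw [e] at hK
  intro s hs0 hs1
  have h01 : (n : ℝ) ≤ v := by exact_mod_cast hnv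
  obtain ⟨a, b, ha, hb, hab, rfl⟩ := (Convex.mem_Icc h01).1 ⟨hs0, hs1⟩
  obtain ⟨k1, k2, k3, k4, k5, k6⟩ := six_aux (sq_nonneg ((v : ℝ) - n)) (D.p1.K_nonneg o1 n)
    (D.p2.K_nonneg o2 n) (D.pm.K_nonneg o5 n) (D.n1.K_nonneg o3 n) (D.n2.K_nonneg o4 n)
    (D.nm.K_nonneg o6 n) hK
  exact seg_aux ha hb hab (D.p1.chord o1 n v a b h01 ha hb hab y1 k1)
    (D.p2.chord o2 n v a b h01 ha hb hab y2 k2) (D.pm.chord o5 n v a b h01 ha hb hab y3 k3)
    (D.n1.chord o3 n v a b h01 ha hb hab y4 k4) (D.n2.chord o4 n v a b h01 ha hb hab y5 k5)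
    (D.nm.chord o6 n v a b h01 ha hb hab y6 k6) h0 h1 hK

theorem Cov.trans {D : Dat} {a b c : ℕ} (h1 : Cov D a b) (h2 : Cov D b c) : Cov D a c := by
  intro s hs0 hs1
  rcases le_total s b with h | h
  · exact h1 s hs0 h
  · exact h2 s h hs1

theorem run_aux {D : Dat} (h : D.ok = true) (hi : ℕ) (vs : List ℕ) (n : ℕ)
    (hr : run D hi vs n = true) : D.F n ≤ D.bd ∧ Cov D n hi := by
  induction vs generalizing n with
  | nil =>
    have hr' : (Nat.beq n hi && vtx D n (Nat.mul n n) 0) = true := hr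
    simp only [Bool.and_eq_true, Nat.beq_eq] at hr'
    obtain ⟨rfl, hv⟩ := hr'
    have := (vtx_spec h n _ hv).2.2.2.2.2.2.1
    refine ⟨this, fun s a b => ?_⟩
    rw [le_antisymm b a]; linarith
  | cons v vs ih =>
    have hr' : (Nat.ble n v && vtx D n (Nat.mul n n) (Nat.sub v n) && run D hi vs v) = true := hr
    simp only [Bool.and_eq_true, Nat.ble_eq] at hr'
    obtain ⟨⟨a, b⟩, c⟩ := hr'
    obtain ⟨d, e⟩ := ih v c
    exact ⟨(vtx_spec h n _ b).2.2.2.2.2.2.1, (seg h n v a b d).trans e⟩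

theorem run_sound {D : Dat} (h : D.ok = true) {hi : ℕ} {vs : List ℕ} {n : ℕ}
    (hr : run D hi vs n = true) : Cov D n hi := (run_aux h hi vs n hr).2

end Vale.Agent.P030
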